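import Mathlib

open MeasureTheory Set
open scoped ENNReal

namespace Vale.Agent.P243b

abbrev E2 := EuclideanSpace ℝ (Fin 2)

def cross2 (p q : E2) : ℝ := p 0 * q 1 - p 1 * q 0

/-- closed standard triangle -/
def stdTri : Set E2 := {v | 0 ≤ v 0 ∧ 0 ≤ v 1 ∧ v 0 + v 1 ≤ 1}

/-- half-open standard triangle -/
def stdTri' : Set E2 := {v | 0 ≤ v 0 ∧ 0 < v 1 ∧ v 0 + v 1 ≤ 1}

noncomputable def c0 : ℝ≥0∞ := volume stdTri

noncomputable def lin2 (p q : E2) : E2 →ₗ[ℝ] E2 where
  toFun v := v 0 • p + v 1 • q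
  map_add' v w := by
    simp only [PiLp.add_apply, add_smul]; abel
  map_smul' c v := by
    simp only [PiLp.smul_apply, smul_eq_mul, RingHom.id_apply, smul_add, mul_smul]

lemma lin2_apply (p q v : E2) : lin2 p q v = v 0 • p + v 1 • q := rfl

lemma det_lin2 (p q : E2) : LinearMap.det (lin2 p q) = cross2 p q := by
  rw [← LinearMap.det_toMatrix (EuclideanSpace.basisFun (Fin 2) ℝ).toBasis, Matrix.det_fin_two]
  simp [LinearMap.toMatrix_apply, lin2_apply, cross2]
  ring

lemma isCompact_stdTri : IsCompact stdTri := by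
  apply Metric.isCompact_of_isClosed_isBounded
  · have h0 : Continuous fun v : E2 => v 0 := by fun_prop
    have h1 : Continuous fun v : E2 => v 1 := by fun_prop
    exact (isClosed_le continuous_const h0).inter
      ((isClosed_le continuous_const h1).inter (isClosed_le (h0.add h1) continuous_const))
  · rw [Metric.isBounded_iff_subset_closedBall 0]
    refine ⟨2, fun v hv => ?_⟩
    obtain ⟨h0, h1, h2⟩ := hv
    rw [mem_closedBall_zero_iff, EuclideanSpace.norm_eq, Real.sqrt_le_iff]
    refine ⟨by norm_num, ?_⟩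
    simp only [Fin.sum_univ_two, Real.norm_eq_abs, sq_abs]
    nlinarith

lemma c0_lt_top : c0 < ⊤ := isCompact_stdTri.measure_lt_top

lemma c0_pos : 0 < c0 := by
  have h0 : Continuous fun v : E2 => v 0 := by fun_prop
  have h1 : Continuous fun v : E2 => v 1 := by fun_prop
  have ho : IsOpen {v : E2 | 0 < v 0 ∧ 0 < v 1 ∧ v 0 + v 1 < 1} :=
    (isOpen_lt continuous_const h0).inter
      ((isOpen_lt continuous_const h1).inter (isOpen_lt (h0.add h1) continuous_const))
  have hne : {v : E2 | 0 < v 0 ∧ 0 < v 1 ∧ v 0 + v 1 < 1}.Nonempty := by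
    refine ⟨!₂[1/4, 1/4], ?_⟩
    simp only [mem_ofPred_eq]
    norm_num
  refine lt_of_lt_of_le (ho.measure_pos volume hne) (measure_mono ?_)
  intro v hv
  exact ⟨hv.1.le, hv.2.1.le, hv.2.2.le⟩

lemma vol_stdTri' : volume stdTri' = c0 := by
  apply le_antisymm
  · exact measure_mono fun v hv => ⟨hv.1, hv.2.1.le, hv.2.2⟩
  · let L : Submodule ℝ E2 := LinearMap.ker (EuclideanSpace.projₗ (1 : Fin 2))
    have hL : L ≠ ⊤ := by
      intro h
      have : (!₂[0, 1] : E2) ∈ L := h ▸ Submodule.mem_top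
      simp [L] at this
    have h0 : volume (L : Set E2) = 0 := Measure.addHaar_submodule volume L hL
    have hsub : stdTri ⊆ stdTri' ∪ (L : Set E2) := by
      intro v hv
      rcases hv.2.1.lt_or_eq with h | h
      · exact Or.inl ⟨hv.1, h, hv.2.2⟩
      · right; simp [L, h.symm]
    calc c0 ≤ volume (stdTri' ∪ (L : Set E2)) := measure_mono hsub
      _ ≤ volume stdTri' + volume (L : Set E2) := measure_union_le _ _
      _ = volume stdTri' := by rw [h0, add_zero]

lemma vol_tri (a p q : E2) (S : Set E2) :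
    volume ((fun v => a + lin2 p q v) '' S) = ENNReal.ofReal |cross2 p q| * volume S := by
  have : (fun v => a + lin2 p q v) '' S = (fun w => a + w) '' (lin2 p q '' S) := by
    rw [image_image]
  rw [this, image_add_left, measure_preimage_add, Measure.addHaar_image_linearMap, det_lin2]

lemma tri_subset {C : Set E2} (hC : Convex ℝ C) {a b c : E2} (ha : a ∈ C) (hb : b ∈ C)
    (hc : c ∈ C) : (fun v => c + lin2 (a - c) (b - c) v) '' stdTri ⊆ C := by
  rintro _ ⟨v, ⟨h0, h1, h2⟩, rfl⟩
  have := hC.sum_mem (t := Finset.univ) (w := ![v 0, v 1, 1 - v 0 - v 1]) (z := ![a, b, c])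
    (by intro i _; fin_cases i <;> simp <;> linarith)
    (by simp [Fin.sum_univ_three])
    (by intro i _; fin_cases i <;> simp [ha, hb, hc])
  convert this using 1
  simp only [Fin.sum_univ_three, lin2_apply]
  simp only [Matrix.cons_val_zero, Matrix.cons_val_one, Matrix.cons_val]
  module

lemma tri_le {C : Set E2} (hC : Convex ℝ C) {a b c : E2} (ha : a ∈ C) (hb : b ∈ C)
    (hc : c ∈ C) : ENNReal.ofReal |cross2 (a - c) (b - c)| * c0 ≤ volume C := by
  rw [c0, ← vol_tri c]
  exact measure_mono (tri_subset hC ha hb hc)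

lemma quad_le_aux {C : Set E2} (hC : Convex ℝ C) {a b c d : E2} (ha : a ∈ C) (hb : b ∈ C)
    (hc : c ∈ C) (hd : d ∈ C) (h1 : 0 < cross2 (a - c) (b - c)) (h2 : cross2 (a - c) (d - c) ≤ 0) :
    ENNReal.ofReal |cross2 (a - c) (b - d)| * c0 ≤ volume C := by
  let H : Set E2 := {w | 0 < cross2 (a - c) (w - c)}
  have hH : MeasurableSet H := by
    apply IsOpen.measurableSet
    apply isOpen_lt continuous_const
    unfold cross2
    fun_prop
  have e : |cross2 (a - c) (b - d)| = |cross2 (a - c) (b - c)| + |cross2 (a - c) (d - c)| := by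
    have : cross2 (a - c) (b - d) = cross2 (a - c) (b - c) - cross2 (a - c) (d - c) := by
      simp [cross2]; ring
    rw [this, abs_of_pos h1, abs_of_nonpos h2, abs_of_pos (by linarith)]
    ring
  rw [e, ENNReal.ofReal_add (abs_nonneg _) (abs_nonneg _), add_mul,
    ← measure_inter_add_sdiff C hH]
  apply add_le_add
  · rw [← vol_stdTri', ← vol_tri c]
    apply measure_mono
    rintro _ ⟨v, hv, rfl⟩
    refine ⟨tri_subset hC ha hb hc ⟨v, ⟨hv.1, hv.2.1.le, hv.2.2⟩, rfl⟩, ?_⟩
    have : cross2 (a - c) (c + lin2 (a - c) (b - c) v - c) = v 1 * cross2 (a - c) (b - c) := by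
      simp [cross2, lin2_apply]; ring
    simp only [H, mem_ofPred_eq, this]
    exact mul_pos hv.2.1 h1
  · rw [c0, ← vol_tri c]
    apply measure_mono
    rintro _ ⟨v, hv, rfl⟩
    refine ⟨tri_subset hC ha hd hc ⟨v, hv, rfl⟩, ?_⟩
    have : cross2 (a - c) (c + lin2 (a - c) (d - c) v - c) = v 1 * cross2 (a - c) (d - c) := by
      simp [cross2, lin2_apply]; ring
    simp only [H, mem_ofPred_eq, this, not_lt]
    exact mul_nonpos_of_nonneg_of_nonpos hv.2.1 h2

lemma quad_le {C : Set E2} (hC : Convex ℝ C) {a b c d : E2} (ha : a ∈ C) (hb : b ∈ C)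
    (hc : c ∈ C) (hd : d ∈ C) :
    ENNReal.ofReal |cross2 (a - c) (b - d)| * c0 ≤ volume C := by
  have key : cross2 (a - c) (b - d) = cross2 (a - c) (b - c) - cross2 (a - c) (d - c) := by
    simp [cross2]; ring
  have hswap : |cross2 (a - c) (b - d)| = |cross2 (a - c) (d - b)| := by
    have : cross2 (a - c) (b - d) = - cross2 (a - c) (d - b) := by simp [cross2]; ring
    rw [this, abs_neg]
  have mono : ∀ {x y : ℝ}, x ≤ y → ENNReal.ofReal y * c0 ≤ volume C →
      ENNReal.ofReal x * c0 ≤ volume C := fun h h' =>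
    le_trans (by gcongr) h'
  by_cases h1 : 0 < cross2 (a - c) (b - c)
  · by_cases h2 : cross2 (a - c) (d - c) ≤ 0
    · exact quad_le_aux hC ha hb hc hd h1 h2
    · push Not at h2
      rcases le_total (cross2 (a - c) (b - c)) (cross2 (a - c) (d - c)) with h | h
      · refine mono ?_ (tri_le hC ha hd hc)
        rw [key, abs_of_nonpos (by linarith), abs_of_pos h2]; linarith
      · refine mono ?_ (tri_le hC ha hb hc)
        rw [key, abs_of_nonneg (by linarith), abs_of_pos h1]; linarith
  · push Not at h1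
    by_cases h2 : 0 < cross2 (a - c) (d - c)
    · rw [hswap]; exact quad_le_aux hC ha hd hc hb h2 h1
    · push Not at h2
      rcases le_total (cross2 (a - c) (b - c)) (cross2 (a - c) (d - c)) with h | h
      · refine mono ?_ (tri_le hC ha hb hc)
        rw [key, abs_of_nonpos (by linarith), abs_of_nonpos h1]; linarith
      · refine mono ?_ (tri_le hC ha hd hc)
        rw [key, abs_of_nonneg (by linarith), abs_of_nonpos h2]; linarith

end Vale.Agent.P243b
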