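import Vale.Agent.P243b.Defs
import Vale.Agent.P243b.Plane

open MeasureTheory Set
open scoped ENNReal RealInnerProductSpace

namespace Vale.Agent.P243b

def det3 (u p q : E3) : ℝ :=
  u 0 * (p 1 * q 2 - p 2 * q 1) + u 1 * (p 2 * q 0 - p 0 * q 2) + u 2 * (p 0 * q 1 - p 1 * q 0)

lemma proj_eq {u : E3} (hu : ‖u‖ = 1) (p : E3) :
    (ℝ ∙ u)ᗮ.starProjection p = p - ⟪u, p⟫ • u := by
  rw [Submodule.starProjection_orthogonal_val, Submodule.starProjection_unit_singleton ℝ hu]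

lemma inner3 (p q : E3) : ⟪p, q⟫ = p 0 * q 0 + p 1 * q 1 + p 2 * q 2 := by
  simp [PiLp.inner_apply, Fin.sum_univ_three]; ring

lemma inner2 (p q : E2) : ⟪p, q⟫ = p 0 * q 0 + p 1 * q 1 := by
  simp [PiLp.inner_apply, Fin.sum_univ_two]; ring

lemma exists_coords {u : E3} (hu : ‖u‖ = 1) : ∃ F : E3 →L[ℝ] E2,
    (∀ S : Set E3, area ((ℝ ∙ u)ᗮ.starProjection '' S) = volume (F '' S)) ∧
    ∀ p q : E3, |cross2 (F p) (F q)| = |det3 u p q| := by
  have hu0 : u ≠ 0 := by rintro rfl; simp at hu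
  have : Fact (Module.finrank ℝ E3 = 2 + 1) := ⟨by simp⟩
  let b := OrthonormalBasis.fromOrthogonalSpanSingleton (𝕜 := ℝ) 2 hu0
  let F : E3 →L[ℝ] E2 :=
    (b.repr.toContinuousLinearEquiv : (ℝ ∙ u)ᗮ →L[ℝ] E2).comp (ℝ ∙ u)ᗮ.orthogonalProjectionOnto
  let J : E2 →ₗᵢ[ℝ] E3 := (ℝ ∙ u)ᗮ.subtypeₗᵢ.comp b.repr.symm.toLinearIsometry
  have hJ : ∀ p, J (F p) = (ℝ ∙ u)ᗮ.starProjection p := by
    intro p
    simp [J, F]
  refine ⟨F, fun S => ?_, fun p q => ?_⟩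
  · have : (ℝ ∙ u)ᗮ.starProjection '' S = J '' (F '' S) := by
      rw [image_image]; simp only [hJ]
    rw [this, area, J.isometry.euclideanHausdorffMeasure_image,
      EuclideanSpace.euclideanHausdorffMeasure_eq_volume]
  · have hin : ∀ p q : E3, ⟪F p, F q⟫ = ⟪p, q⟫ - ⟪u, p⟫ * ⟪u, q⟫ := by
      intro p q
      rw [← J.inner_map_map, hJ, hJ, proj_eq hu, proj_eq hu]
      have huu : ⟪u, u⟫ = 1 := by rw [real_inner_self_eq_norm_sq, hu]; norm_num
      simp only [inner_sub_left, inner_sub_right, real_inner_smul_left, real_inner_smul_right,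
        huu, real_inner_comm u p]
      ring
    have huu : u 0 * u 0 + u 1 * u 1 + u 2 * u 2 = 1 := by
      rw [← inner3, real_inner_self_eq_norm_sq, hu]; norm_num
    have h1 := hin p p
    have h2 := hin q q
    have h3 := hin p q
    rw [inner2] at h1 h2 h3
    simp only [inner3] at h1 h2 h3
    rw [← sq_eq_sq_iff_abs_eq_abs]
    have : cross2 (F p) (F q) ^ 2 =
        (F p 0 * F p 0 + F p 1 * F p 1) * (F q 0 * F q 0 + F q 1 * F q 1)
          - (F p 0 * F q 0 + F p 1 * F q 1) ^ 2 := by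
      unfold cross2; ring
    rw [this, h1, h2, h3]
    unfold det3
    linear_combination
      (-((p 0 * p 0 + p 1 * p 1 + p 2 * p 2) * (q 0 * q 0 + q 1 * q 1 + q 2 * q 2)
        - (p 0 * q 0 + p 1 * q 1 + p 2 * q 2) ^ 2)) * huu

/-- the closed triangle with vertices `o`, `o + p`, `o + q` -/
def tri3 (o p q : E3) : Set E3 := (fun v : E2 => o + v 0 • p + v 1 • q) '' stdTri

lemma isCompact_tri3 (o p q : E3) : IsCompact (tri3 o p q) :=
  isCompact_stdTri.image (by fun_prop)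

lemma area_proj_tri3 {u : E3} (hu : ‖u‖ = 1) (o p q : E3) :
    area ((ℝ ∙ u)ᗮ.starProjection '' tri3 o p q) = ENNReal.ofReal |det3 u p q| * c0 := by
  obtain ⟨F, hF, hd⟩ := exists_coords hu
  rw [hF, ← hd, c0, ← vol_tri (F o), tri3, image_image]
  congr 2
  ext v
  simp [lin2_apply, add_assoc]

lemma projArea_lt_top {u : E3} (hu : ‖u‖ = 1) {K : Set E3} (hK : IsCompact K) :
    projArea K u < ⊤ := by
  obtain ⟨F, hF, -⟩ := exists_coords hu
  rw [projArea, hF]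
  exact (hK.image F.continuous).measure_lt_top

lemma quad_le_projArea {u : E3} (hu : ‖u‖ = 1) {K : Set E3} (hK : Convex ℝ K) {a b c d : E3}
    (ha : a ∈ K) (hb : b ∈ K) (hc : c ∈ K) (hd : d ∈ K) :
    ENNReal.ofReal |det3 u (a - c) (b - d)| * c0 ≤ projArea K u := by
  obtain ⟨F, hF, hdet⟩ := exists_coords hu
  rw [projArea, hF, ← hdet, map_sub, map_sub]
  exact quad_le (hK.linear_image F.toLinearMap) (mem_image_of_mem F ha) (mem_image_of_mem F hb)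
    (mem_image_of_mem F hc) (mem_image_of_mem F hd)

lemma mem_cylinder {U : E3} (hU : U ≠ 0) (o p q x : E3) (α β l : ℝ) (hα : 0 ≤ α) (hβ : 0 ≤ β)
    (hαβ : α + β ≤ 1) (hx : x = o + α • p + β • q + l • U) :
    x ∈ cylinder ((ℝ ∙ (‖U‖⁻¹ • U))ᗮ.starProjection '' tri3 o p q) (‖U‖⁻¹ • U) := by
  have hn : ‖U‖ ≠ 0 := norm_ne_zero_iff.mpr hU
  have hu : ‖‖U‖⁻¹ • U‖ = 1 := by rw [norm_smul, norm_inv, norm_norm, inv_mul_cancel₀ hn]
  refine ⟨_, ⟨o + α • p + β • q, ⟨!₂[α, β], ⟨by simpa, by simpa, by simpa⟩, by simp⟩, rfl⟩,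
    ⟪‖U‖⁻¹ • U, o + α • p + β • q⟫ + l * ‖U‖, ?_⟩
  rw [proj_eq hu, hx, add_smul, smul_smul (l * ‖U‖), mul_assoc, mul_inv_cancel₀ hn, mul_one]
  abel

end Vale.Agent.P243b
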