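import Mathlib

open MeasureTheory
open scoped ENNReal

namespace Vale.Agent.P243b

/-- Euclidean three-space. -/
abbrev E3 := EuclideanSpace ℝ (Fin 3)

/-- A convex body: compact, convex, with nonempty interior. -/
def IsConvexBody (K : Set E3) : Prop :=
  IsCompact K ∧ Convex ℝ K ∧ (interior K).Nonempty

/-- Planar (two-dimensional Euclidean, Lebesgue-normalised Hausdorff) area of a set. -/
noncomputable def area (B : Set E3) : ℝ≥0∞ :=
  MeasureTheory.Measure.euclideanHausdorffMeasure 2 B

/-- Area of the orthogonal projection of `K` onto the plane orthogonal to `u`. -/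
noncomputable def projArea (K : Set E3) (u : E3) : ℝ≥0∞ :=
  area ((Submodule.orthogonal (Submodule.span ℝ {u})).starProjection '' K)

/-- The smallest area of an orthogonal projection of `K` onto a plane. -/
noncomputable def minProjArea (K : Set E3) : ℝ≥0∞ :=
  ⨅ (u : E3) (_ : ‖u‖ = 1), projArea K u

/-- The cylinder `B + ℝ u`. -/
def cylinder (B : Set E3) (u : E3) : Set E3 :=
  {p | ∃ b ∈ B, ∃ t : ℝ, p = b + t • u}

end Vale.Agent.P243b
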