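import Mathlib

namespace Vale.Agent.P243b

lemma discrete_ivt (f : ℕ → ℝ) (N : ℕ) (hN : 0 < N) (h0 : 0 ≤ f 0) (h1 : f N ≤ 0) :
    ∃ k < N, 0 ≤ f k ∧ f (k + 1) ≤ 0 := by
  induction N with
  | zero => omega
  | succ n ih =>
    by_cases hn : 0 ≤ f n
    · exact ⟨n, by omega, hn, h1⟩
    · rcases Nat.eq_zero_or_pos n with rfl | hpos
      · exact absurd h0 hn
      · obtain ⟨k, hk, h⟩ := ih hpos (by linarith)
        exact ⟨k, by omega, h⟩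

/-- tilt parameter -/
noncomputable def ee : ℝ := 1 / 100
/-- half width of a cell -/
noncomputable def dd : ℝ := 1 / 1000000
/-- radial length of the triangle at midpoint `m` -/
noncomputable def RR (m : ℝ) : ℝ := 1 / 2 + (103 / 4000000 * (m ^ 2 + m ^ 4) + 1 / 50000000)
/-- lateral slope -/
noncomputable def AA (m : ℝ) : ℝ := ee * (1 + m ^ 2 - dd ^ 2) / 2

lemma AA_nonneg (m : ℝ) : 0 ≤ AA m := by
  unfold AA ee dd; nlinarith [sq_nonneg m]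

lemma AA_le {m : ℝ} (hm : m ^ 2 ≤ 1) : AA m ≤ 1 / 100 := by
  unfold AA ee dd; nlinarith

lemma abs_mul_le_one' {a b : ℝ} (ha : |a| ≤ 1) (hb : |b| ≤ 1) : |a * b| ≤ 1 := by
  rw [abs_mul]; exact mul_le_one₀ ha (abs_nonneg _) hb

lemma cover_core (m n A B ρ σ E : ℝ) (hm2 : m ^ 2 ≤ 1) (hn2 : n ^ 2 ≤ 1) (hmn : |m * n| ≤ 1)
    (hA0 : 0 ≤ A) (hB0 : 0 ≤ B) (hA : A ≤ (1 + m ^ 2) / 200) (hB : B ≤ (1 + n ^ 2) / 200)
    (hE : E ≤ 3 / 1000000)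
    (hid : ρ * (1 + A * B + 1 / 100 * (m * n) - 1 / 100 * (B * m ^ 2))
      + σ * (1 + A * B - 1 / 100 * (m * n) - 1 / 100 * (A * n ^ 2)) = 1 + A * B + 1 / 100 * E)
    (hρ : RR m < ρ) (hσ : RR n < σ) : False := by
  have hAB : 0 ≤ A * B := mul_nonneg hA0 hB0
  have k6 : B * m ^ 2 ≤ (1 + n ^ 2) / 200 * m ^ 2 := mul_le_mul_of_nonneg_right hB (sq_nonneg m)
  have k7 : A * n ^ 2 ≤ (1 + m ^ 2) / 200 * n ^ 2 := mul_le_mul_of_nonneg_right hA (sq_nonneg n)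
  have k8 : 2 * (m ^ 2 * n ^ 2) ≤ m ^ 4 + n ^ 4 := by nlinarith [sq_nonneg (m ^ 2 - n ^ 2)]
  have hmn2 : m ^ 2 * n ^ 2 ≤ 1 := mul_le_one₀ hm2 (sq_nonneg _) hn2
  have hm0 := sq_nonneg m
  have hn0 := sq_nonneg n
  have hm4 : 0 ≤ m ^ 4 := by positivity
  have hn4 : 0 ≤ n ^ 4 := by positivity
  obtain ⟨hmn1, hmn3⟩ := abs_le.mp hmn
  generalize hc1 : 1 + A * B + 1 / 100 * (m * n) - 1 / 100 * (B * m ^ 2) = c1 at hid
  generalize hc2 : 1 + A * B - 1 / 100 * (m * n) - 1 / 100 * (A * n ^ 2) = c2 at hid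
  have hc1b : 98 / 100 ≤ c1 := by rw [← hc1]; linarith
  have hc2b : 98 / 100 ≤ c2 := by rw [← hc2]; linarith
  unfold RR at hρ hσ
  generalize hr1 : 103 / 4000000 * (m ^ 2 + m ^ 4) + 1 / 50000000 = r1 at hρ
  generalize hr2 : 103 / 4000000 * (n ^ 2 + n ^ 4) + 1 / 50000000 = r2 at hσ
  have hr10 : 0 ≤ r1 := by rw [← hr1]; positivity
  have hr20 : 0 ≤ r2 := by rw [← hr2]; positivity
  have k1 : (1 / 2 + r1) * c1 ≤ ρ * c1 := mul_le_mul_of_nonneg_right hρ.le (by linarith)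
  have k2 : (1 / 2 + r2) * c2 ≤ σ * c2 := mul_le_mul_of_nonneg_right hσ.le (by linarith)
  have k3 : r1 * (98 / 100) ≤ r1 * c1 := mul_le_mul_of_nonneg_left hc1b hr10
  have k4 : r2 * (98 / 100) ≤ r2 * c2 := mul_le_mul_of_nonneg_left hc2b hr20
  linarith

lemma cover_E (m n A B e1 e2 : ℝ) (hm : |m| ≤ 1) (hn : |n| ≤ 1)
    (hA0 : 0 ≤ A) (hB0 : 0 ≤ B) (hA : A ≤ 1 / 100) (hB : B ≤ 1 / 100)
    (he1b : |e1| ≤ 101 / 100000000) (he2b : |e2| ≤ 101 / 100000000) :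
    (m + A * n) * e2 + (B * m - n) * e1 ≤ 3 / 1000000 := by
  have hE1 : |m + A * n| ≤ 101 / 100 := by
    refine le_trans (abs_add_le _ _) ?_
    rw [abs_mul, abs_of_nonneg hA0]; nlinarith [abs_nonneg n]
  have hE2 : |B * m - n| ≤ 101 / 100 := by
    refine le_trans (abs_sub _ _) ?_
    rw [abs_mul, abs_of_nonneg hB0]; nlinarith [abs_nonneg m]
  have a1 : (m + A * n) * e2 ≤ 101 / 100 * (101 / 100000000) := by
    refine le_trans (le_abs_self _) ?_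
    rw [abs_mul]; gcongr
  have a2 : (B * m - n) * e1 ≤ 101 / 100 * (101 / 100000000) := by
    refine le_trans (le_abs_self _) ?_
    rw [abs_mul]; gcongr
  linarith

lemma cover_ineq (m n x y z ζ ρ σ : ℝ) (hm : |m| ≤ 1) (hn : |n| ≤ 1) (hz : ζ + z = 1)
    (hx : |x| ≤ z) (hy : |y| ≤ ζ) (hρ : ρ = ζ + ee * x * m) (hσ : σ = z - ee * y * n)
    (h1 : |y + AA m * x - m * ρ| ≤ dd * ρ) (h2 : |x - AA n * y - n * σ| ≤ dd * σ) :
    ρ ≤ RR m ∨ σ ≤ RR n := by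
  by_contra hcon
  push Not at hcon
  obtain ⟨hρR, hσR⟩ := hcon
  have hm2 : m ^ 2 ≤ 1 := by nlinarith [abs_nonneg m, sq_abs m]
  have hn2 : n ^ 2 ≤ 1 := by nlinarith [abs_nonneg n, sq_abs n]
  have hz0 : 0 ≤ z := le_trans (abs_nonneg _) hx
  have hζ0 : 0 ≤ ζ := le_trans (abs_nonneg _) hy
  have hxm : |x * m| ≤ 1 := abs_mul_le_one' (by linarith) hm
  have hyn : |y * n| ≤ 1 := abs_mul_le_one' (by linarith) hn
  have hmn : |m * n| ≤ 1 := abs_mul_le_one' hm hn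
  unfold ee at hρ hσ
  unfold dd at h1 h2
  have hρ1 : ρ ≤ 101 / 100 := by
    have := (abs_le.mp hxm).2
    rw [hρ]; linarith
  have hσ1 : σ ≤ 101 / 100 := by
    have := (abs_le.mp hyn).1
    rw [hσ]; linarith
  have hsum : ρ + σ = 1 + 1 / 100 * (x * m - y * n) := by rw [hρ, hσ]; linarith
  refine cover_core m n (AA m) (AA n) ρ σ _ hm2 hn2 hmn (AA_nonneg m) (AA_nonneg n)
    (by unfold AA ee dd; linarith) (by unfold AA ee dd; linarith)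
    (cover_E m n (AA m) (AA n) (y + AA m * x - m * ρ) (x - AA n * y - n * σ) hm hn
      (AA_nonneg m) (AA_nonneg n) (AA_le hm2) (AA_le hn2) (by linarith) (by linarith))
    ?_ hρR hσR
  linear_combination (1 + AA m * AA n) * hsum

/-- antiderivative used for the telescoping bound -/
noncomputable def GG (t : ℝ) : ℝ :=
  t / 4 + 1 / 10000 * (-t / 32 - 11 / 600 * t ^ 3 + 181 / 4000 * t ^ 5) + t / 20000000

lemma inv_sqrt_le {W : ℝ} (h0 : 0 ≤ W) (h1 : W ≤ 1 / 1000) :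
    (Real.sqrt (1 + W))⁻¹ ≤ 1 - W / 2 + W ^ 2 / 2 := by
  have hp : 0 < 1 - W / 2 + W ^ 2 / 2 := by nlinarith
  have hs : 0 < Real.sqrt (1 + W) := Real.sqrt_pos.mpr (by linarith)
  rw [inv_le_iff_one_le_mul₀ hs]
  have : (1 - W / 2 + W ^ 2 / 2) * Real.sqrt (1 + W)
      = Real.sqrt ((1 - W / 2 + W ^ 2 / 2) ^ 2 * (1 + W)) := by
    rw [Real.sqrt_mul (sq_nonneg _), Real.sqrt_sq hp.le]
  rw [this]
  apply Real.le_sqrt_of_sq_le
  have h2 : 0 ≤ W ^ 2 := sq_nonneg W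
  have h3 : 0 ≤ W ^ 3 := by positivity
  have h4 : 0 ≤ W ^ 5 := by positivity
  have h5 : W ^ 4 ≤ W ^ 2 := by nlinarith
  nlinarith

lemma cell_bound {m : ℝ} (hm : |m| ≤ 1) :
    RR m ^ 2 * (2 * dd) * (Real.sqrt (1 + (AA m ^ 2 + 2 * ee ^ 2 * m ^ 2)))⁻¹
      ≤ GG (m + dd) - GG (m - dd) := by
  have hm2 : m ^ 2 ≤ 1 := by nlinarith [abs_nonneg m, sq_abs m]
  have hm20 : 0 ≤ m ^ 2 := sq_nonneg m
  have hm4 : m ^ 4 ≤ 1 := by nlinarith
  have hm40 : 0 ≤ m ^ 4 := by positivity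
  have hA0 := AA_nonneg m
  have hA1 := AA_le hm2
  set W := AA m ^ 2 + 2 * ee ^ 2 * m ^ 2 with hW
  have hW0 : 0 ≤ W := by rw [hW]; positivity
  have hW1 : W ≤ 3 / 10000 := by rw [hW]; unfold ee; nlinarith
  have hinv := inv_sqrt_le hW0 (by linarith)
  set r := 103 / 4000000 * (m ^ 2 + m ^ 4) + 1 / 50000000 with hr
  have hr0 : 0 ≤ r := by rw [hr]; positivity
  have hr1 : r ≤ 52 / 1000000 := by rw [hr]; linarith
  have hRR : RR m = 1 / 2 + r := rfl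
  have hWl : (1 + m ^ 2) ^ 2 / 40000 - 1 / 1000000000000 + m ^ 2 / 5000 ≤ W := by
    rw [hW]; unfold AA ee dd; nlinarith
  have hq : 1 - W / 2 + W ^ 2 / 2 ≤ 1 := by nlinarith
  have hq0 : 0 ≤ 1 - W / 2 + W ^ 2 / 2 := by nlinarith
  have s1 : RR m ^ 2 * (Real.sqrt (1 + W))⁻¹ ≤ 1 / 4 - W / 8 + W ^ 2 / 8 + r + r ^ 2 := by
    calc RR m ^ 2 * (Real.sqrt (1 + W))⁻¹ ≤ RR m ^ 2 * (1 - W / 2 + W ^ 2 / 2) := by gcongr
      _ = 1 / 4 * (1 - W / 2 + W ^ 2 / 2) + (r + r ^ 2) * (1 - W / 2 + W ^ 2 / 2) := by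
        rw [hRR]; ring
      _ ≤ 1 / 4 * (1 - W / 2 + W ^ 2 / 2) + (r + r ^ 2) * 1 := by gcongr
      _ = _ := by ring
  have s2 : W ^ 2 ≤ 9 / 100000000 := by nlinarith
  have s3 : r ^ 2 ≤ 3 / 1000000000 := by nlinarith
  have s4 : RR m ^ 2 * (Real.sqrt (1 + W))⁻¹
      ≤ 1 / 4 + 1 / 10000 * (-1 / 32 - 11 / 200 * m ^ 2 + 181 / 800 * m ^ 4) + 4 / 100000000 := by
    nlinarith
  have s5 : GG (m + dd) - GG (m - dd) ≥
      2 * dd * (1 / 4 + 1 / 10000 * (-1 / 32 - 11 / 200 * m ^ 2 + 181 / 800 * m ^ 4)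
        + 4 / 100000000) := by
    unfold GG dd; nlinarith
  have hd : 0 < dd := by unfold dd; norm_num
  calc RR m ^ 2 * (2 * dd) * (Real.sqrt (1 + W))⁻¹
      = 2 * dd * (RR m ^ 2 * (Real.sqrt (1 + W))⁻¹) := by ring
    _ ≤ 2 * dd * (1 / 4 + 1 / 10000 * (-1 / 32 - 11 / 200 * m ^ 2 + 181 / 800 * m ^ 4)
        + 4 / 100000000) := by gcongr
    _ ≤ _ := s5

/-- number of cells -/
def NN : ℕ := 1000000
/-- cell endpoints -/
noncomputable def tt (k : ℕ) : ℝ := -1 + 2 * dd * k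
/-- cell midpoints -/
noncomputable def mm (k : ℕ) : ℝ := tt k + dd

lemma tt_NN : tt NN = 1 := by unfold tt NN dd; norm_num
lemma tt_zero : tt 0 = -1 := by unfold tt; norm_num
lemma tt_succ (k : ℕ) : tt (k + 1) = mm k + dd := by unfold mm tt; push_cast; ring
lemma tt_eq (k : ℕ) : tt k = mm k - dd := by unfold mm; ring

lemma abs_mm_le {k : ℕ} (hk : k < NN) : |mm k| ≤ 1 := by
  have h1 : (k : ℝ) + 1 ≤ 1000000 := by exact_mod_cast hk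
  have h0 : (0 : ℝ) ≤ k := Nat.cast_nonneg k
  unfold mm tt dd
  rw [abs_le]; constructor <;> linarith

lemma sum_bound : ∑ k ∈ Finset.range NN,
    RR (mm k) ^ 2 * (2 * dd) * (Real.sqrt (1 + (AA (mm k) ^ 2 + 2 * ee ^ 2 * mm k ^ 2)))⁻¹
      < 1 / 2 := by
  calc _ ≤ ∑ k ∈ Finset.range NN, (GG (tt (k + 1)) - GG (tt k)) := by
        apply Finset.sum_le_sum
        intro k hk
        rw [tt_succ, tt_eq k]
        exact cell_bound (abs_mm_le (Finset.mem_range.mp hk))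
    _ = GG (tt NN) - GG (tt 0) := Finset.sum_range_sub (fun k => GG (tt k)) NN
    _ < 1 / 2 := by rw [tt_NN, tt_zero]; unfold GG; norm_num

/-- every point lies in one of the wedges -/
lemma exists_wedge (e x y ζ : ℝ) (hy : |y| ≤ ζ) : ∃ k < NN,
    0 ≤ y + e * (1 + mm k ^ 2 - dd ^ 2) / 2 * x - (mm k - dd) * (ζ + e * x * mm k) ∧
    y + e * (1 + mm k ^ 2 - dd ^ 2) / 2 * x - (mm k + dd) * (ζ + e * x * mm k) ≤ 0 := by
  obtain ⟨k, hk, h1, h2⟩ := discrete_ivt (fun k => y - tt k * ζ + e * x * (1 - tt k ^ 2) / 2) NN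
    (by unfold NN; norm_num)
    (by simp only [tt_zero]; linarith [(abs_le.mp hy).1])
    (by simp only [tt_NN]; linarith [(abs_le.mp hy).2])
  refine ⟨k, hk, ?_, ?_⟩
  · rw [tt_eq] at h1; convert h1 using 1; ring
  · rw [tt_succ] at h2; convert h2 using 1; ring

lemma min_proj_ineq (a b g : ℝ) (h : a ^ 2 + b ^ 2 + 2 * g ^ 2 = 1) :
    1 ≤ |2 * g| ∨ 1 ≤ |a + b| ∨ 1 ≤ |a - b| ∨ 1 ≤ |b + g| ∨ 1 ≤ |b - g| ∨ 1 ≤ |a + g| ∨
      1 ≤ |a - g| := by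
  by_contra hcon
  push Not at hcon
  obtain ⟨h1, h2, h3, h4, h5, h6, h7⟩ := hcon
  have q1 : (a + b) ^ 2 ≤ |a + b| := by nlinarith [abs_nonneg (a + b), sq_abs (a + b)]
  have q2 : (a - b) ^ 2 ≤ |a - b| := by nlinarith [abs_nonneg (a - b), sq_abs (a - b)]
  have q3 : (2 * g) ^ 2 ≤ |2 * g| := by nlinarith [abs_nonneg (2 * g), sq_abs (2 * g)]
  have q4 : |a + b| + |a - b| + |2 * g| < 2 := by
    rw [abs_lt] at h4 h5 h6 h7
    rcases abs_cases (a + b) with h | h <;> rcases abs_cases (a - b) with h' | h' <;>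
      rcases abs_cases (2 * g) with h'' | h'' <;> linarith [h.1, h'.1, h''.1]
  nlinarith

end Vale.Agent.P243b
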