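import Vale.Agent.P243b.Area
import Vale.Agent.P243b.Ineq

open MeasureTheory Set
open scoped ENNReal RealInnerProductSpace

namespace Vale.Agent.P243b

noncomputable def hh : ℝ := Real.sqrt 2
lemma hh_pos : 0 < hh := Real.sqrt_pos.mpr (by norm_num)
lemma hh_sq : hh ^ 2 = 2 := Real.sq_sqrt (by norm_num)

noncomputable def vert : Fin 4 → E3 := ![!₂[1, 0, hh], !₂[-1, 0, hh], !₂[0, 1, 0], !₂[0, -1, 0]]

noncomputable def tet : Set E3 := convexHull ℝ (range vert)

lemma vert_mem (i : Fin 4) : vert i ∈ tet := subset_convexHull ℝ _ (mem_range_self i)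

lemma dist_vert (i j : Fin 4) (hij : i ≠ j) : dist (vert i) (vert j) = 2 := by
  have h2 := hh_sq
  have key : ∀ x : ℝ, x = 4 → Real.sqrt x = 2 := by
    intro x hx
    rw [hx, show (4 : ℝ) = 2 ^ 2 by norm_num, Real.sqrt_sq (by norm_num)]
  rw [EuclideanSpace.dist_eq]
  apply key
  fin_cases i <;> fin_cases j <;> simp [vert, Fin.sum_univ_three, Real.dist_eq] at hij ⊢ <;>
    nlinarith

lemma tet_subset : tet ⊆ {p : E3 | |p 0| ≤ p 2 / hh ∧ |p 1| ≤ 1 - p 2 / hh} := by
  apply convexHull_min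
  · rintro _ ⟨i, rfl⟩
    have := hh_pos.ne'
    fin_cases i <;> simp [vert, this]
  · intro p hp q hq a b ha hb hab
    obtain ⟨hp1, hp2⟩ := hp
    obtain ⟨hq1, hq2⟩ := hq
    simp only [mem_ofPred_eq, PiLp.add_apply, PiLp.smul_apply, smul_eq_mul]
    have e : (a * p 2 + b * q 2) / hh = a * (p 2 / hh) + b * (q 2 / hh) := by ring
    rw [e]
    generalize p 2 / hh = s at *
    generalize q 2 / hh = t at *
    rw [abs_le] at hp1 hp2 hq1 hq2
    constructor <;> rw [abs_le] <;> constructor <;> nlinarith [hp1.1, hp1.2, hp2.1, hp2.2, hq1.1,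
      hq1.2, hq2.1, hq2.2]

lemma tet_convexBody : IsConvexBody tet := by
  refine ⟨(finite_range vert).isCompact_convexHull ℝ, convex_convexHull ℝ _, ?_⟩
  rw [tet, interior_convexHull_nonempty_iff_affineSpan_eq_top]
  rw [eq_top_iff]
  intro p _
  have hp := hh_pos.ne'
  have := affineCombination_mem_affineSpan (k := ℝ) (s := Finset.univ)
    (w := ![(p 2 / hh + p 0) / 2, (p 2 / hh - p 0) / 2, (1 - p 2 / hh + p 1) / 2,
      (1 - p 2 / hh - p 1) / 2]) (by simp [Fin.sum_univ_four]; ring) vert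
  rw [Finset.affineCombination_eq_linear_combination _ _ _ (by simp [Fin.sum_univ_four]; ring)]
    at this
  convert this using 1
  ext i
  fin_cases i <;> simp [vert, Fin.sum_univ_four] <;> field_simp <;> ring

lemma le_projArea {u : E3} (hu : ‖u‖ = 1) : ENNReal.ofReal (2 * hh) * c0 ≤ projArea tet u := by
  have hc : Convex ℝ tet := convex_convexHull ℝ _
  have hp := hh_pos
  have h2 := hh_sq
  have huu : u 0 * u 0 + u 1 * u 1 + u 2 * u 2 = 1 := by
    rw [← inner3, real_inner_self_eq_norm_sq, hu]; norm_num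
  obtain ⟨g, hg⟩ : ∃ g, u 2 = hh * g := ⟨u 2 / hh, by field_simp⟩
  have key : ∀ (i j k l : Fin 4) (t : ℝ), 1 ≤ |t| →
      (det3 u (vert i - vert k) (vert j - vert l) = 2 * hh * t ∨
        det3 u (vert i - vert k) (vert j - vert l) = -(2 * hh * t)) →
      ENNReal.ofReal (2 * hh) * c0 ≤ projArea tet u := by
    intro i j k l t ht hd
    refine le_trans ?_ (quad_le_projArea hu hc (vert_mem i) (vert_mem j) (vert_mem k) (vert_mem l))
    have : |det3 u (vert i - vert k) (vert j - vert l)| = 2 * hh * |t| := by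
      rcases hd with hd | hd
      · rw [hd, abs_mul, abs_of_pos (by positivity)]
      · rw [hd, abs_neg, abs_mul, abs_of_pos (by positivity)]
    rw [this]
    have h3 : 2 * hh ≤ 2 * hh * |t| := by nlinarith
    exact mul_le_mul_left (ENNReal.ofReal_le_ofReal h3) _
  rcases min_proj_ineq (u 0) (u 1) g (by rw [hg] at huu; nlinarith) with h | h | h | h | h | h | h
  · exact key 0 2 1 3 _ h (Or.inl (by simp [det3, vert, hg]; ring))
  · exact key 0 1 2 3 _ h (Or.inr (by simp [det3, vert, hg]; ring))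
  · exact key 0 1 3 2 _ h (Or.inl (by simp [det3, vert, hg]; ring))
  · exact key 0 2 1 1 _ h (Or.inl (by simp [det3, vert, hg]; ring))
  · exact key 0 3 1 1 _ h (Or.inl (by simp [det3, vert, hg]; ring))
  · exact key 2 1 3 3 _ h (Or.inl (by simp [det3, vert, hg]; ring))
  · exact key 2 0 3 3 _ h (Or.inl (by simp [det3, vert, hg]; ring))

noncomputable def dirU : Bool → ℝ → E3
  | true, m => !₂[1, -AA m, hh * ee * m]
  | false, m => !₂[AA m, 1, hh * ee * m]

noncomputable def apex : Bool → E3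
  | true => !₂[0, 0, hh]
  | false => !₂[0, 0, 0]

noncomputable def side : Bool → ℝ → ℝ → E3
  | true, m, t => !₂[0, RR m * t, -(RR m * hh)]
  | false, m, t => !₂[RR m * t, 0, RR m * hh]

lemma dirU_ne (b : Bool) (m : ℝ) : dirU b m ≠ 0 := by
  intro h
  cases b
  · have := congrArg (fun v : E3 => v 1) h
    simp [dirU] at this
  · have := congrArg (fun v : E3 => v 0) h
    simp [dirU] at this

lemma norm_dirU (b : Bool) (m : ℝ) :
    ‖dirU b m‖ = Real.sqrt (1 + (AA m ^ 2 + 2 * ee ^ 2 * m ^ 2)) := by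
  rw [EuclideanSpace.norm_eq]
  congr 1
  cases b <;> simp [dirU, Fin.sum_univ_three, mul_pow, hh_sq] <;> ring

noncomputable def unitU (b : Bool) (m : ℝ) : E3 := ‖dirU b m‖⁻¹ • dirU b m

lemma norm_unitU (b : Bool) (m : ℝ) : ‖unitU b m‖ = 1 := by
  have hn : ‖dirU b m‖ ≠ 0 := norm_ne_zero_iff.mpr (dirU_ne b m)
  rw [unitU, norm_smul, norm_inv, norm_norm, inv_mul_cancel₀ hn]

noncomputable def base (b : Bool) (m : ℝ) : Set E3 :=
  (ℝ ∙ unitU b m)ᗮ.starProjection '' tri3 (apex b) (side b m (m - dd)) (side b m (m + dd))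

lemma RR_pos (m : ℝ) : 0 < RR m := by unfold RR; positivity
lemma dd_pos : 0 < dd := by unfold dd; norm_num

noncomputable def cellA (m : ℝ) : ℝ :=
  RR m ^ 2 * (2 * dd) * (Real.sqrt (1 + (AA m ^ 2 + 2 * ee ^ 2 * m ^ 2)))⁻¹

lemma cellA_nonneg (m : ℝ) : 0 ≤ cellA m := by
  have := dd_pos
  unfold cellA; positivity

lemma area_base (b : Bool) (m : ℝ) : area (base b m) = ENNReal.ofReal (hh * cellA m) * c0 := by
  rw [base, area_proj_tri3 (norm_unitU b m)]
  congr 2
  have : det3 (unitU b m) (side b m (m - dd)) (side b m (m + dd)) = hh * cellA m := by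
    rw [cellA, ← norm_dirU b m, unitU]
    generalize ‖dirU b m‖⁻¹ = c
    cases b <;> simp [det3, dirU, side] <;> ring
  rw [this, abs_of_nonneg (mul_nonneg hh_pos.le (cellA_nonneg m))]

lemma cover (p : E3) (hp : p ∈ tet) :
    ∃ (b : Bool) (k : ℕ), k < NN ∧ p ∈ cylinder (base b (mm k)) (unitU b (mm k)) := by
  obtain ⟨hx, hy⟩ := tet_subset hp
  have hh0 := hh_pos
  have hd := dd_pos
  obtain ⟨z, hz⟩ : ∃ z, p 2 = hh * z := ⟨p 2 / hh, by field_simp⟩
  have hz' : p 2 / hh = z := by rw [hz]; field_simp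
  rw [hz'] at hx hy
  obtain ⟨k, hk, a1, a2⟩ := exists_wedge ee (p 0) (p 1) (1 - z) hy
  obtain ⟨l, hl, b1, b2⟩ := exists_wedge (-ee) (p 1) (p 0) z hx
  have hA : ∀ m, ee * (1 + m ^ 2 - dd ^ 2) / 2 = AA m := fun m => rfl
  have hA' : ∀ m, -ee * (1 + m ^ 2 - dd ^ 2) / 2 = -AA m := fun m => by unfold AA; ring
  rw [hA] at a1 a2
  rw [hA'] at b1 b2
  generalize hm : mm k = m at *
  generalize hn : mm l = n at *
  have hR := RR_pos m
  have hR' := RR_pos n
  rcases cover_ineq m n (p 0) (p 1) z (1 - z) (1 - z + ee * p 0 * m) (z - ee * p 1 * n)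
    (hm ▸ abs_mm_le hk) (hn ▸ abs_mm_le hl) (by ring) hx hy rfl rfl
    (by rw [abs_le]; constructor <;> linarith) (by rw [abs_le]; constructor <;> linarith)
    with h | h
  · refine ⟨true, k, hk, ?_⟩
    rw [hm]
    refine mem_cylinder (dirU_ne true m) _ _ _ p
      (-(p 1 + AA m * p 0 - (m + dd) * (1 - z + ee * p 0 * m)) / (2 * dd * RR m))
      ((p 1 + AA m * p 0 - (m - dd) * (1 - z + ee * p 0 * m)) / (2 * dd * RR m)) (p 0)
      (div_nonneg (by linarith) (by positivity)) (div_nonneg a1 (by positivity)) ?_ ?_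
    · rw [← add_div, div_le_one (by positivity)]
      nlinarith
    · ext i
      fin_cases i <;> simp [apex, side, dirU, hz] <;> field_simp <;> ring
  · refine ⟨false, l, hl, ?_⟩
    rw [hn]
    refine mem_cylinder (dirU_ne false n) _ _ _ p
      (-(p 0 - AA n * p 1 - (n + dd) * (z - ee * p 1 * n)) / (2 * dd * RR n))
      ((p 0 - AA n * p 1 - (n - dd) * (z - ee * p 1 * n)) / (2 * dd * RR n)) (p 1)
      (div_nonneg (by linarith) (by positivity)) (div_nonneg (by linarith) (by positivity)) ?_ ?_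
    · rw [← add_div, div_le_one (by positivity)]
      nlinarith
    · ext i
      fin_cases i <;> simp [apex, side, dirU, hz] <;> field_simp <;> ring

lemma sum_area_lt : ∑ i : Bool × Fin NN, area (base i.1 (mm i.2)) < ENNReal.ofReal hh * c0 := by
  simp only [area_base]
  rw [← Finset.sum_mul, ← ENNReal.ofReal_sum_of_nonneg
    (fun i _ => mul_nonneg hh_pos.le (cellA_nonneg _))]
  apply ENNReal.mul_lt_mul_left c0_pos.ne' c0_lt_top.ne
  rw [ENNReal.ofReal_lt_ofReal_iff hh_pos, Fintype.sum_prod_type]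
  simp only [Finset.sum_const, Finset.card_univ, Fintype.card_bool, nsmul_eq_mul,
    ← Finset.mul_sum]
  rw [Fin.sum_univ_eq_sum_range (fun k => cellA (mm k)) NN]
  have := sum_bound
  have h := hh_pos
  change ∑ k ∈ Finset.range NN, cellA (mm k) < 1 / 2 at this
  push_cast
  nlinarith

lemma le_minProjArea : ENNReal.ofReal (2 * hh) * c0 ≤ minProjArea tet :=
  le_iInf₂ fun _ hu => le_projArea hu

lemma sum_area_lt' : ∑ i : Bool × Fin NN, area (base i.1 (mm i.2)) < minProjArea tet / 2 := by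
  refine lt_of_lt_of_le sum_area_lt ?_
  rw [ENNReal.le_div_iff_mul_le (Or.inl (by norm_num)) (Or.inl (by norm_num))]
  refine le_trans (le_of_eq ?_) le_minProjArea
  rw [ENNReal.ofReal_mul (by norm_num)]
  simp only [ENNReal.ofReal_ofNat]
  ring

lemma rel_lt {ι : Type*} [Fintype ι] (K : Set E3) (hK : IsCompact K) (u : ι → E3) (a : ι → ℝ≥0∞)
    (hu : ∀ i, ‖u i‖ = 1) (h : ∑ i, a i < minProjArea K / 2) :
    ∑ i, a i / projArea K (u i) < 1 / 2 := by
  have h0 : minProjArea K ≠ 0 := by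
    intro h0
    rw [h0] at h
    simp at h
  have e0 : ‖(EuclideanSpace.single 0 1 : E3)‖ = 1 := by simp
  have ht : minProjArea K ≠ ⊤ :=
    (lt_of_le_of_lt (iInf₂_le (f := fun u (_ : ‖u‖ = 1) => projArea K u) _ e0)
      (projArea_lt_top e0 hK)).ne
  calc ∑ i, a i / projArea K (u i) ≤ ∑ i, a i / minProjArea K := by
        apply Finset.sum_le_sum
        intro i _
        exact ENNReal.div_le_div_left
          (iInf₂_le (f := fun u (_ : ‖u‖ = 1) => projArea K u) _ (hu i)) _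
    _ = (∑ i, a i) / minProjArea K := by simp only [div_eq_mul_inv, Finset.sum_mul]
    _ < 1 / 2 := by
        rw [ENNReal.div_lt_iff (Or.inl h0) (Or.inl ht)]
        refine lt_of_lt_of_le h (le_of_eq ?_)
        rw [div_eq_mul_inv, one_div, mul_comm]

lemma main : ∃ (m : ℕ) (u : Fin m → E3) (B : Fin m → Set E3),
    (∀ i, ‖u i‖ = 1) ∧ (∀ i, B i ⊆ (ℝ ∙ u i)ᗮ) ∧ (∀ i, IsCompact (B i)) ∧
    (∀ i, MeasurableSet (B i)) ∧ (∀ i, area (B i) < ⊤) ∧
    tet ⊆ ⋃ i, cylinder (B i) (u i) ∧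
    ∑ i, area (B i) < minProjArea tet / 2 ∧
    ∑ i, area (B i) / projArea tet (u i) < 1 / 2 := by
  obtain ⟨m, ⟨e⟩⟩ : ∃ m, Nonempty (Fin m ≃ Bool × Fin NN) :=
    ⟨_, ⟨(Fintype.equivFin (Bool × Fin NN)).symm⟩⟩
  have hcomp : ∀ b t, IsCompact (base b t) := fun b t =>
    (isCompact_tri3 _ _ _).image (ContinuousLinearMap.continuous _)
  have hsum : ∑ i, area (base (e i).1 (mm (e i).2)) < minProjArea tet / 2 := by
    rw [Equiv.sum_comp e (fun j => area (base j.1 (mm j.2)))]
    exact sum_area_lt'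
  refine ⟨m, fun i => unitU (e i).1 (mm (e i).2), fun i => base (e i).1 (mm (e i).2),
    fun i => norm_unitU _ _, fun i => ?_, fun i => hcomp _ _,
    fun i => (hcomp _ _).measurableSet, fun i => ?_, fun p hp => ?_, hsum,
    rel_lt tet tet_convexBody.1 _ _ (fun i => norm_unitU _ _) hsum⟩
  · rintro _ ⟨q, -, rfl⟩
    exact Submodule.starProjection_apply_mem _ q
  · rw [area_base]
    exact ENNReal.mul_lt_top ENNReal.ofReal_lt_top c0_lt_top
  · obtain ⟨b, k, hk, h⟩ := cover p hp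
    refine mem_iUnion.mpr ⟨e.symm (b, ⟨k, hk⟩), ?_⟩
    simpa using h

end Vale.Agent.P243b
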